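import Vale.Agent.Lib.P038.Sat.Shapes.S6_1t
noncomputable section
namespace Vale.Agent.Lib.P038.Sat.I.M3_1
open Vale.Agent.Lib.P038.Sat
def W : Nat := 8
def M : Nat := 255
def GT : Nat := 114847377681407121426149500719840461433983510102520675370
def h0 : T := (T.l (nat_lit 0))
def H : T := h0
theorem hlast : getB H 0 = 0 := by decide +kernel
end Vale.Agent.Lib.P038.Sat.I.M3_1
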